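import Vale.Agent.Lib.P062.Cert.Sound

/-!
# Root checks relative to a set of cells already owned by Breaker

A variant of the root check of the certificate checker with one more mask `A`: only those stored lemmas
count whose zone avoids `A`.  The cells of `A` may therefore be owned by Breaker already.
-/

namespace Vale.Agent.Lib.P062

/-- The intersection of the zones of those lemmas with indices in the list that have index
below `n`, are stated for the Maker mask `M0`, and whose zone is disjoint from the mask `A`. -/
def rootInterA (E : Tr) (n M0 A : ℕ) : List ℕ → ℕ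
  | [] => fullMask
  | j :: js =>
    (match (bif Nat.blt j n then Tr.get E j else .leaf) with
      | .val m z =>
        bif Nat.beq m M0 && Nat.beq (Nat.land z A) 0
        then Nat.land z (rootInterA E n M0 A js) else rootInterA E n M0 A js
      | _ => rootInterA E n M0 A js)

/-- Root check relative to `A`: the lemma `j0` is stated for `M0`, its zone avoids `A`, and the
intersection of its zone with the zones of the lemmas in `js` that are stated for `M0` and avoid
`A` lies inside `M0` and the excluded mask `X`. -/
def chkRootA (E : Tr) (n M0 X A : ℕ) (j0 : ℕ) (js : List ℕ) : Bool :=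
  Nat.blt j0 n &&
  (match Tr.get E j0 with
    | .val m z =>
      Nat.beq m M0 && Nat.beq (Nat.land z A) 0 &&
        Nat.beq (Nat.land (Nat.land z (rootInterA E n M0 A js)) (Nat.lor M0 X))
          (Nat.land z (rootInterA E n M0 A js))
    | _ => false)

theorem disjoint_S_of_land {z A : ℕ} (h : Nat.land z A = 0) : Disjoint (S A) (S z) := by
  rw [Finset.disjoint_iff_inter_eq_empty, Finset.inter_comm, ← S_land, h, S_zero]

theorem rootInterA_sound (E : Tr) (n M0 A : ℕ) (hE : ∀ i, i < n → (E.get i).Valid) :
    ∀ (js : List ℕ) (b : Cell), b ∈ win → b ∉ S (rootInterA E n M0 A js) →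
      ∃ z, b ∉ S z ∧ Disjoint (S A) (S z) ∧ W0 (S M0) (S z) := by
  intro js
  induction js with
  | nil =>
    intro b hb hbi
    simp only [rootInterA] at hbi
    rw [S_fullMask] at hbi
    exact absurd hb hbi
  | cons j js ih =>
    intro b hb hbi
    simp only [rootInterA] at hbi
    cases hlt : Nat.blt j n with
    | false =>
      rw [hlt] at hbi
      exact ih b hb hbi
    | true =>
      rw [hlt] at hbi
      rw [Nat.blt_eq] at hlt
      have hv := hE j hlt
      simp only [cond_true] at hbi
      cases hg : E.get j with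
      | leaf => rw [hg] at hbi; exact ih b hb hbi
      | node l r => rw [hg] at hbi; exact ih b hb hbi
      | val m z =>
        rw [hg] at hbi hv
        dsimp only at hbi
        cases hm : (Nat.beq m M0 && Nat.beq (Nat.land z A) 0) with
        | false => rw [hm] at hbi; exact ih b hb hbi
        | true =>
          rw [hm] at hbi
          rw [Bool.and_eq_true, Nat.beq_eq, Nat.beq_eq] at hm
          obtain ⟨hm1, hm2⟩ := hm
          subst hm1
          simp only [cond_true] at hbi
          rw [S_land, Finset.mem_inter, not_and_or] at hbi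
          rcases hbi with hbz | hbi'
          · exact ⟨z, hbz, disjoint_S_of_land hm2, hv⟩
          · exact ih b hb hbi'

/-- Soundness of the root check relative to `A`: every cell outside `M0` and `X` lies outside
the zone of a valid lemma stated for `M0` whose zone avoids `A`. -/
theorem chkRootA_sound (E : Tr) (n M0 X A j0 : ℕ) (js : List ℕ)
    (hE : ∀ i, i < n → (E.get i).Valid) (h : chkRootA E n M0 X A j0 js = true) :
    ∀ b : Cell, b ∉ S (Nat.lor M0 X) →
      ∃ z, b ∉ S z ∧ Disjoint (S A) (S z) ∧ W0 (S M0) (S z) := by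
  intro b hb
  unfold chkRootA at h
  rw [Bool.and_eq_true, Nat.blt_eq] at h
  obtain ⟨hlt, h⟩ := h
  have hv := hE j0 hlt
  cases hg : E.get j0 with
  | leaf => rw [hg] at h; exact absurd h (by simp)
  | node l r => rw [hg] at h; exact absurd h (by simp)
  | val m z =>
    rw [hg] at h hv
    dsimp only at h
    simp only [Bool.and_eq_true, Nat.beq_eq] at h
    obtain ⟨⟨hm, hA⟩, hcov⟩ := h
    subst hm
    by_cases hbz : b ∈ S z
    · have hcov' := S_subset_of_land hcov
      rw [S_land] at hcov'
      have hbi : b ∉ S (rootInterA E n m A js) := fun hbi =>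
        hb (hcov' (Finset.mem_inter.mpr ⟨hbz, hbi⟩))
      exact rootInterA_sound E n m A hE js b (S_subset_win _ hbz) hbi
    · exact ⟨z, hbz, disjoint_S_of_land hA, hv⟩

/-- General consequence: in the position where Maker owns `S M0` and Breaker owns the cells of
`S A` together with one more cell `b` outside `S M0` and `S X`, Maker (to move) wins. -/
theorem mw_of_rootA (E : Tr) (n M0 X A j0 : ℕ) (js : List ℕ)
    (hE : ∀ i, i < n → (E.get i).Valid) (h : chkRootA E n M0 X A j0 js = true)
    (b : Cell) (hb : b ∉ S (Nat.lor M0 X)) : MW (S M0) (insert b (S A)) := by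
  obtain ⟨z, hbz, hAz, hW⟩ := chkRootA_sound E n M0 X A j0 js hE h b hb
  apply hW
  rw [Finset.disjoint_insert_left]
  exact ⟨hbz, hAz⟩

/-- Full solution, inductive form: if the root check succeeds with no excluded cell and no
Breaker cell, Maker (owning the origin, to move) wins against every single Breaker cell. -/
theorem mw_all (E : Tr) (n j0 : ℕ) (js : List ℕ)
    (hE : ∀ i, i < n → (E.get i).Valid) (h : chkRootA E n (cbit 528) 0 0 j0 js = true)
    (b : Cell) (hb0 : b ≠ (0, 0)) : MW {(0, 0)} {b} := by
  have hb : b ∉ S (Nat.lor (cbit 528) 0) := by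
    rw [S_lor, S_zero, Finset.union_empty, S_origin]
    simpa using hb0
  have hMW := mw_of_rootA E n (cbit 528) 0 0 j0 js hE h b hb
  rw [S_origin, S_zero] at hMW
  simpa using hMW

/-- Full solution after the first move: Maker, owning the origin and to move, wins against
every Breaker first reply. -/
theorem maker_wins_all (E : Tr) (n j0 : ℕ) (js : List ℕ)
    (hE : ∀ i, i < n → (E.get i).Valid) (h : chkRootA E n (cbit 528) 0 0 j0 js = true) :
    ∀ b : Cell, b ≠ (0, 0) → MakerWinsFrom {(0, 0)} {b} :=
  fun b hb0 => (mw_all E n j0 js hE h b hb0).makerWinsFrom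

/-- Full solution: Maker wins the Snaky game from the empty board. -/
theorem maker_wins_empty (E : Tr) (n j0 : ℕ) (js : List ℕ)
    (hE : ∀ i, i < n → (E.get i).Valid) (h : chkRootA E n (cbit 528) 0 0 j0 js = true) :
    MakerWinsFrom (∅ : Finset Cell) ∅ := by
  have hstep : MW (∅ : Finset Cell) ∅ := by
    refine MW.step ∅ ∅ (0, 0) (Finset.notMem_empty _) (Finset.notMem_empty _) ?_
    intro b _ hb _
    have := mw_all E n j0 js hE h b hb
    simpa using this
  exact hstep.makerWinsFrom

theorem S_second_M : S (Nat.lor (cbit 528) (cbit 496)) = {((0 : ℤ), (0 : ℤ)), (-1, 0)} := by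
  simp only [S_lor, S_cbit (by norm_num : 528 < 1024), S_cbit (by norm_num : 496 < 1024)]
  ext x
  simp [dec]

theorem S_second_MX : S (Nat.lor (Nat.lor (cbit 528) (cbit 496))
    (Nat.lor (cbit 497) (cbit 495))) ⊆
    {((0 : ℤ), (0 : ℤ)), (-1, 0), (1, 0), (-1, 1), (-1, -1)} := by
  simp only [S_lor, S_cbit (by norm_num : 528 < 1024), S_cbit (by norm_num : 496 < 1024),
    S_cbit (by norm_num : 497 < 1024), S_cbit (by norm_num : 495 < 1024)]
  intro x
  simp [dec]
  tauto

theorem S_second_A : S (cbit 560) = {((1 : ℤ), (0 : ℤ))} := by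
  rw [S_cbit (by norm_num)]
  simp [dec]

/-- Two-ply statement: after Maker `(0,0)`, Breaker `(1,0)`, Maker `(-1,0)`, Maker wins against
every Breaker reply other than `(-1,1)` and `(-1,-1)`. -/
theorem maker_wins_second (E : Tr) (n j0 : ℕ) (js : List ℕ)
    (hE : ∀ i, i < n → (E.get i).Valid)
    (h : chkRootA E n (Nat.lor (cbit 528) (cbit 496)) (Nat.lor (cbit 497) (cbit 495))
      (cbit 560) j0 js = true) :
    ∀ b : Cell, b ∉ ({(0, 0), (-1, 0), (1, 0), (-1, 1), (-1, -1)} : Finset Cell) →
      MakerWinsFrom {(0, 0), (-1, 0)} {(1, 0), b} := by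
  intro b hb
  have hb' : b ∉ S (Nat.lor (Nat.lor (cbit 528) (cbit 496)) (Nat.lor (cbit 497) (cbit 495))) :=
    fun hmem => hb (S_second_MX hmem)
  have hMW := mw_of_rootA E n _ _ _ j0 js hE h b hb'
  rw [S_second_M, S_second_A] at hMW
  have hset : (insert b ({((1 : ℤ), (0 : ℤ))} : Finset Cell)) = {((1 : ℤ), (0 : ℤ)), b} := by
    ext x
    simp [or_comm]
  rw [hset] at hMW
  exact hMW.makerWinsFrom

end Vale.Agent.Lib.P062
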