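import Mathlib

/-!
# The Snaky achievement game: definitions and a general invariant lemma

Cells of the square grid are pairs of integers.  A Maker-Breaker game is played on a board
`B : Set Cell` with a family `W` of winning sets.  Maker moves first; a play is described by the
sequence `m : ℕ → Cell` of Maker's moves, Breaker answering by a strategy that sees the whole
history.
-/

namespace Vale.Agent.Lib.P062

/-- A cell of the square grid, indexed by its lower-left corner. -/
abbrev Cell : Type := ℤ × ℤ

/-- The hexomino Snaky. -/
def snaky : Finset Cell := {(0, 0), (1, 0), (2, 0), (3, 0), (3, 1), (4, 1)}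

/-- The action of the eight signed permutation matrices on cells:
`(x, y) ↦ (a x, b y)` when `swap = false` and `(x, y) ↦ (a y, b x)` when `swap = true`,
where `a, b ∈ {1, -1}`. -/
def signedPerm (swap : Bool) (a b : ℤ) (p : Cell) : Cell :=
  if swap then (a * p.2, b * p.1) else (a * p.1, b * p.2)

/-- `C` is an allowed copy of Snaky: `C = t + R(S)` for a translation `t` and one of the eight
signed permutation matrices `R`. -/
def IsSnakyCopy (C : Finset Cell) : Prop :=
  ∃ (swap : Bool) (a b : ℤ) (t : Cell), (a = 1 ∨ a = -1) ∧ (b = 1 ∨ b = -1) ∧
    C = snaky.image (fun p => t + signedPerm swap a b p)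

/-- The allowed copies of Snaky that lie inside the board `B`. -/
def snakyCopiesIn (B : Set Cell) : Set (Finset Cell) :=
  {C | IsSnakyCopy C ∧ ∀ c ∈ C, c ∈ B}

/-- A Breaker strategy: given the list of Maker's moves so far (oldest first, the last entry
being the move to be answered) and the list of Breaker's earlier replies, it returns Breaker's
next reply. -/
abbrev BreakerStrategy : Type := List Cell → List Cell → Cell

/-- The list of Maker's first `n` moves, oldest first. -/
def makerMoves (m : ℕ → Cell) (n : ℕ) : List Cell := (List.range n).map m

/-- The list of Breaker's first `n` replies when Breaker follows `σ` against the sequence `m`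
of Maker's moves. -/
def breakerMoves (σ : BreakerStrategy) (m : ℕ → Cell) : ℕ → List Cell
  | 0 => []
  | n + 1 => breakerMoves σ m n ++ [σ (makerMoves m (n + 1)) (breakerMoves σ m n)]

/-- Maker's moves number `0, …, n` are legal against `σ` on the board `B`: each of them is a
cell of the board that neither player has claimed before. -/
def MakerLegal (B : Set Cell) (σ : BreakerStrategy) (m : ℕ → Cell) (n : ℕ) : Prop :=
  ∀ k ≤ n, m k ∈ B ∧ m k ∉ makerMoves m k ∧ m k ∉ breakerMoves σ m k

/-- Breaker wins the Maker-Breaker game on the board `B` with winning sets `W` (Maker moves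
first, one cell per turn): there is a Breaker strategy `σ` such that, for every sequence `m` of
Maker moves and every `n` for which Maker's moves `0, …, n` are legal against `σ`,
Maker does not own all cells of any winning set after his move number `n`, and the reply of `σ`
to that move is a legal move (a cell of the board not yet claimed) unless every cell of the board
is already claimed. -/
def BreakerWins (B : Set Cell) (W : Set (Finset Cell)) : Prop :=
  ∃ σ : BreakerStrategy, ∀ (m : ℕ → Cell) (n : ℕ), MakerLegal B σ m n →
    (∀ C ∈ W, ¬ ∀ c ∈ C, c ∈ makerMoves m (n + 1)) ∧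
    ((σ (makerMoves m (n + 1)) (breakerMoves σ m n) ∈ B ∧
        σ (makerMoves m (n + 1)) (breakerMoves σ m n) ∉ makerMoves m (n + 1) ∧
        σ (makerMoves m (n + 1)) (breakerMoves σ m n) ∉ breakerMoves σ m n) ∨
      ∀ c ∈ B, c ∈ makerMoves m (n + 1) ∨ c ∈ breakerMoves σ m n)

theorem makerMoves_succ (m : ℕ → Cell) (n : ℕ) :
    makerMoves m (n + 1) = makerMoves m n ++ [m n] := by
  simp [makerMoves, List.range_succ]

theorem mem_makerMoves_succ (m : ℕ → Cell) (n : ℕ) (c : Cell) :
    c ∈ makerMoves m (n + 1) ↔ c = m n ∨ c ∈ makerMoves m n := by
  rw [makerMoves_succ]; simp [or_comm]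

/-- A position invariant gives a winning strategy for Breaker.  `Inv M R` is a property of
positions (`M` Maker's cells, `R` Breaker's cells, Maker to move) that holds initially and such
that after any legal Maker move no winning set is owned by Maker and Breaker can restore the
invariant by a legal reply, unless the board is full. -/
theorem breakerWins_of_invariant (B : Set Cell) (W : Set (Finset Cell))
    (Inv : Finset Cell → Finset Cell → Prop) (h0 : Inv ∅ ∅)
    (hstep : ∀ (M R : Finset Cell) (c : Cell), Inv M R → c ∈ B → c ∉ M → c ∉ R →
      (∀ C ∈ W, ¬ C ⊆ insert c M) ∧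
      ((∃ r, r ∈ B ∧ r ∉ insert c M ∧ r ∉ R ∧ Inv (insert c M) (insert r R)) ∨
        ∀ x ∈ B, x ∈ insert c M ∨ x ∈ R)) :
    BreakerWins B W := by
  classical
  -- the strategy
  let good : List Cell → List Cell → Cell → Prop := fun ms bs r =>
    r ∈ B ∧ r ∉ ms.toFinset ∧ r ∉ bs.toFinset ∧ Inv ms.toFinset (insert r bs.toFinset)
  let σ : BreakerStrategy := fun ms bs =>
    if h : ∃ r, good ms bs r then Classical.choose h else (0, 0)
  have hσ : ∀ ms bs, (∃ r, good ms bs r) → good ms bs (σ ms bs) := by
    intro ms bs h
    simp only [σ, dif_pos h]
    exact Classical.choose_spec h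
  refine ⟨σ, ?_⟩
  intro m
  have hM : ∀ n, (makerMoves m (n + 1)).toFinset = insert (m n) (makerMoves m n).toFinset := by
    intro n
    ext c
    simp [mem_makerMoves_succ]
  have hB : ∀ n, (breakerMoves σ m (n + 1)).toFinset =
      insert (σ (makerMoves m (n + 1)) (breakerMoves σ m n)) (breakerMoves σ m n).toFinset := by
    intro n
    ext c
    simp only [breakerMoves, List.mem_toFinset, List.mem_append, List.mem_singleton,
      Finset.mem_insert]
    exact or_comm
  -- the invariant holds before each legal Maker move
  have key : ∀ n, MakerLegal B σ m n →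
      Inv (makerMoves m n).toFinset (breakerMoves σ m n).toFinset := by
    intro n
    induction n with
    | zero => intro _; simpa [makerMoves, breakerMoves] using h0
    | succ n ih =>
      intro hleg
      have hleg' : MakerLegal B σ m n := fun k hk => hleg k (Nat.le_succ_of_le hk)
      have hinv := ih hleg'
      obtain ⟨hcB, hcM, hcR⟩ := hleg n (Nat.le_succ n)
      have hs := (hstep _ _ (m n) hinv hcB (by simpa using hcM) (by simpa using hcR)).2
      rcases hs with ⟨r, hr1, hr2, hr3, hr4⟩ | hfull
      · have hg : ∃ r, good (makerMoves m (n + 1)) (breakerMoves σ m n) r :=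
          ⟨r, hr1, by rw [hM]; exact hr2, hr3, by rw [hM]; exact hr4⟩
        have := (hσ _ _ hg).2.2.2
        rw [hB]
        exact this
      · exfalso
        obtain ⟨hB1, hM1, hR1⟩ := hleg (n + 1) le_rfl
        rcases hfull _ hB1 with h | h
        · exact hM1 (by rw [← List.mem_toFinset, hM]; exact h)
        · apply hR1
          simp only [breakerMoves, List.mem_append]
          exact Or.inl (by simpa using h)
  intro n hleg
  have hinv := key n hleg
  obtain ⟨hcB, hcM, hcR⟩ := hleg n le_rfl
  obtain ⟨hs1, hs2⟩ := hstep _ _ (m n) hinv hcB (by simpa using hcM) (by simpa using hcR)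
  refine ⟨?_, ?_⟩
  · intro C hC hall
    apply hs1 C hC
    intro c hc
    rw [← hM]
    simpa using hall c hc
  · rcases hs2 with ⟨r, hr1, hr2, hr3, hr4⟩ | hfull
    · left
      have hg : ∃ r, good (makerMoves m (n + 1)) (breakerMoves σ m n) r :=
        ⟨r, hr1, by rw [hM]; exact hr2, hr3, by rw [hM]; exact hr4⟩
      obtain ⟨g1, g2, g3, _⟩ := hσ _ _ hg
      exact ⟨g1, by simpa using g2, by simpa using g3⟩
    · right
      intro c hc
      rcases hfull c hc with h | h
      · left
        rw [← List.mem_toFinset, hM]; exact h
      · right; simpa using h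

/-- Breaker wins by a pairing strategy: if `partner` is an involution on cells and every winning
set contains two distinct cells of the board that are partners, then Breaker wins. -/
theorem breakerWins_of_pairing (B : Set Cell) (W : Set (Finset Cell)) (partner : Cell → Cell)
    (hinv : ∀ c, partner (partner c) = c)
    (hW : ∀ C ∈ W, ∃ d ∈ C, partner d ∈ C ∧ partner d ≠ d ∧ d ∈ B ∧ partner d ∈ B) :
    BreakerWins B W := by
  classical
  refine breakerWins_of_invariant B W
    (fun M R => Disjoint M R ∧ ∀ d ∈ M, partner d ≠ d → partner d ∈ B → partner d ∈ R)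
    ⟨by simp, by simp⟩ ?_
  rintro M R c ⟨hdisj, hpair⟩ hcB hcM hcR
  have hMR : ∀ x, x ∈ M → x ∉ R := fun x hx hx' => Finset.disjoint_left.mp hdisj hx hx'
  refine ⟨?_, ?_⟩
  · intro C hC hsub
    obtain ⟨d, hdC, hpC, hne, hdB, hpB⟩ := hW C hC
    have hd := hsub hdC
    have hp := hsub hpC
    rw [Finset.mem_insert] at hd hp
    rcases hd with rfl | hd
    · rcases hp with hp | hp
      · exact hne hp
      · have := hpair _ hp (by rw [hinv]; exact fun h => hne h.symm) (by rw [hinv]; exact hdB)
        rw [hinv] at this
        exact hcR this
    · rcases hp with hp | hp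
      · have := hpair _ hd hne hpB
        rw [hp] at this
        exact hcR this
      · exact hMR _ hp (hpair _ hd hne hpB)
  · by_cases hfree : partner c ≠ c ∧ partner c ∈ B ∧ partner c ∉ R
    · obtain ⟨h1, h2, h3⟩ := hfree
      left
      have hpM : partner c ∉ M := by
        intro h
        have := hpair _ h (by rw [hinv]; exact fun h' => h1 h'.symm) (by rw [hinv]; exact hcB)
        rw [hinv] at this
        exact hcR this
      refine ⟨partner c, h2, ?_, h3, ?_, ?_⟩
      · simp [h1, hpM]
      · rw [Finset.disjoint_left]
        intro x hx hx'
        rw [Finset.mem_insert] at hx hx'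
        rcases hx with rfl | hx
        · rcases hx' with h | h
          · exact h1 h.symm
          · exact hcR h
        · rcases hx' with h | h
          · exact hpM (h ▸ hx)
          · exact hMR _ hx h
      · intro d hd hne hdB
        rw [Finset.mem_insert] at hd
        rcases hd with rfl | hd
        · exact Finset.mem_insert_self _ _
        · exact Finset.mem_insert_of_mem (hpair d hd hne hdB)
    · by_cases hex : ∃ r, r ∈ B ∧ r ∉ insert c M ∧ r ∉ R
      · obtain ⟨r, hr1, hr2, hr3⟩ := hex
        left
        refine ⟨r, hr1, hr2, hr3, ?_, ?_⟩
        · rw [Finset.disjoint_left]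
          intro x hx hx'
          rw [Finset.mem_insert] at hx'
          rcases hx' with rfl | h
          · exact hr2 hx
          · rw [Finset.mem_insert] at hx
            rcases hx with rfl | hx
            · exact hcR h
            · exact hMR _ hx h
        · intro d hd hne hdB
          rw [Finset.mem_insert] at hd
          rcases hd with rfl | hd
          · by_contra hnot
            exact hfree ⟨hne, hdB, fun h => hnot (Finset.mem_insert_of_mem h)⟩
          · exact Finset.mem_insert_of_mem (hpair d hd hne hdB)
      · right
        intro x hx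
        by_contra hnot
        exact hex ⟨x, hx, fun h => hnot (Or.inl h), fun h => hnot (Or.inr h)⟩

end Vale.Agent.Lib.P062
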