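import Vale.Agent.Lib.P062.Game

/-!
# Maker's side of the Snaky game on the whole plane

`MakerWinsFrom M0 B0` says that Maker, to move in the position where Maker owns the cells `M0`
and Breaker owns the cells `B0`, has a winning strategy on the board `ℤ × ℤ`.
-/

namespace Vale.Agent.Lib.P062

/-- The list `[b 0, …, b (n - 1)]` of Breaker's first `n` moves. -/
def breakerPrefix (b : ℕ → Cell) (n : ℕ) : List Cell := (List.range n).map b

/-- The cells claimed by Maker in his first `n` moves when he follows the strategy `τ` against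
the sequence `b` of Breaker's moves: Maker's move number `i` is `τ [b 0, …, b (i - 1)]`. -/
def makerCells (τ : List Cell → Cell) (b : ℕ → Cell) (n : ℕ) : Finset Cell :=
  (Finset.range n).image (fun i => τ (breakerPrefix b i))

/-- The cells claimed by Breaker in his first `n` moves. -/
def breakerCells (b : ℕ → Cell) (n : ℕ) : Finset Cell := (Finset.range n).image b

/-- Maker, to move in the position where Maker owns `M0` and Breaker owns `B0` (on the board
`ℤ × ℤ`), has a winning strategy: a map `τ` from the list of Breaker's moves so far to Maker's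
next cell such that for every sequence `b` of Breaker moves there is an `n` with the following
property: if Breaker's answers to Maker's first `n - 1` moves are legal (unclaimed cells), then
Maker's first `n` moves are legal and after them Maker owns all cells of an allowed copy of
Snaky. -/
def MakerWinsFrom (M0 B0 : Finset Cell) : Prop :=
  ∃ τ : List Cell → Cell, ∀ b : ℕ → Cell, ∃ n : ℕ,
    (∀ j, j + 1 < n → b j ∉ M0 ∪ makerCells τ b (j + 1) ∧ b j ∉ B0 ∪ breakerCells b j) →
    (∀ i, i < n → τ (breakerPrefix b i) ∉ M0 ∪ makerCells τ b i ∧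
        τ (breakerPrefix b i) ∉ B0 ∪ breakerCells b i) ∧
      ∃ C : Finset Cell, IsSnakyCopy C ∧ C ⊆ M0 ∪ makerCells τ b n

/-- Inductive description of positions won by Maker (Maker to move). -/
inductive MW : Finset Cell → Finset Cell → Prop
  | won (M B : Finset Cell) (C : Finset Cell) (hC : IsSnakyCopy C) (hsub : C ⊆ M) : MW M B
  | step (M B : Finset Cell) (a : Cell) (haM : a ∉ M) (haB : a ∉ B)
      (h : ∀ b : Cell, b ∉ M → b ≠ a → b ∉ B → MW (insert a M) (insert b B)) : MW M B

theorem breakerPrefix_succ (b : ℕ → Cell) (n : ℕ) :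
    breakerPrefix b (n + 1) = b 0 :: breakerPrefix (fun j => b (j + 1)) n := by
  simp [breakerPrefix, List.range_succ_eq_map, List.map_map, Function.comp_def]

theorem breakerCells_succ (b : ℕ → Cell) (n : ℕ) :
    breakerCells b (n + 1) = insert (b 0) (breakerCells (fun j => b (j + 1)) n) := by
  ext c
  simp only [breakerCells, Finset.mem_image, Finset.mem_range, Finset.mem_insert]
  constructor
  · rintro ⟨i, hi, rfl⟩
    rcases i with _ | i
    · exact Or.inl rfl
    · exact Or.inr ⟨i, by omega, rfl⟩
  · rintro (rfl | ⟨i, hi, rfl⟩)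
    · exact ⟨0, by omega, rfl⟩
    · exact ⟨i + 1, by omega, rfl⟩

theorem makerCells_succ (τ τ' : List Cell → Cell) (a : Cell) (b : ℕ → Cell)
    (h0 : τ [] = a) (hs : ∀ l, τ (b 0 :: l) = τ' l) (n : ℕ) :
    makerCells τ b (n + 1) = insert a (makerCells τ' (fun j => b (j + 1)) n) := by
  ext c
  simp only [makerCells, Finset.mem_image, Finset.mem_range, Finset.mem_insert]
  constructor
  · rintro ⟨i, hi, rfl⟩
    rcases i with _ | i
    · left; simp [breakerPrefix, h0]
    · right
      refine ⟨i, by omega, ?_⟩
      rw [breakerPrefix_succ, hs]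
  · rintro (rfl | ⟨i, hi, rfl⟩)
    · exact ⟨0, by omega, by simp [breakerPrefix, h0]⟩
    · refine ⟨i + 1, by omega, ?_⟩
      rw [breakerPrefix_succ, hs]

/-- The inductive description is sound: a position in `MW` is won by Maker. -/
theorem MW.makerWinsFrom {M B : Finset Cell} (h : MW M B) : MakerWinsFrom M B := by
  classical
  induction h with
  | won M B C hC hsub =>
    refine ⟨fun _ => (0, 0), fun b => ⟨0, fun _ => ⟨fun i hi => absurd hi (Nat.not_lt_zero i), C, hC, ?_⟩⟩⟩
    exact hsub.trans Finset.subset_union_left
  | step M B a haM haB h ih =>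
    -- choose a strategy for every legal reply
    have ih' : ∀ b : Cell, ∃ τ : List Cell → Cell, b ∉ M → b ≠ a → b ∉ B →
        ∀ b' : ℕ → Cell, ∃ n : ℕ,
          (∀ j, j + 1 < n → b' j ∉ insert a M ∪ makerCells τ b' (j + 1) ∧
            b' j ∉ insert b B ∪ breakerCells b' j) →
          (∀ i, i < n → τ (breakerPrefix b' i) ∉ insert a M ∪ makerCells τ b' i ∧
              τ (breakerPrefix b' i) ∉ insert b B ∪ breakerCells b' i) ∧
            ∃ C : Finset Cell, IsSnakyCopy C ∧ C ⊆ insert a M ∪ makerCells τ b' n := by
      intro b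
      by_cases hb : b ∉ M ∧ b ≠ a ∧ b ∉ B
      · obtain ⟨τ, hτ⟩ := ih b hb.1 hb.2.1 hb.2.2
        exact ⟨τ, fun _ _ _ => hτ⟩
      · exact ⟨fun _ => (0, 0), fun h1 h2 h3 => absurd ⟨h1, h2, h3⟩ hb⟩
    choose σ hσ using ih'
    let τ : List Cell → Cell := fun l =>
      match l with
      | [] => a
      | b0 :: l' => σ b0 l'
    refine ⟨τ, fun b => ?_⟩
    have h0 : τ [] = a := rfl
    have hs : ∀ l, τ (b 0 :: l) = σ (b 0) l := fun l => rfl
    have hM : ∀ n, M ∪ makerCells τ b (n + 1) =
        insert a M ∪ makerCells (σ (b 0)) (fun j => b (j + 1)) n := by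
      intro n
      rw [makerCells_succ τ (σ (b 0)) a b h0 hs n]
      ext c
      simp only [Finset.mem_union, Finset.mem_insert]
      tauto
    have hB : ∀ n, B ∪ breakerCells b (n + 1) =
        insert (b 0) B ∪ breakerCells (fun j => b (j + 1)) n := by
      intro n
      rw [breakerCells_succ]
      ext c
      simp only [Finset.mem_union, Finset.mem_insert]
      tauto
    by_cases hb : b 0 ∉ M ∧ b 0 ≠ a ∧ b 0 ∉ B
    · obtain ⟨n', hn'⟩ := hσ (b 0) hb.1 hb.2.1 hb.2.2 (fun j => b (j + 1))
      refine ⟨n' + 1, fun hprem => ?_⟩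
      have hprem' : ∀ j, j + 1 < n' →
          b (j + 1) ∉ insert a M ∪ makerCells (σ (b 0)) (fun j => b (j + 1)) (j + 1) ∧
          b (j + 1) ∉ insert (b 0) B ∪ breakerCells (fun j => b (j + 1)) j := by
        intro j hj
        have := hprem (j + 1) (by omega)
        rw [hM (j + 1), hB j] at this
        exact this
      obtain ⟨hleg, C, hC, hsub⟩ := hn' hprem'
      refine ⟨?_, C, hC, ?_⟩
      · intro i hi
        rcases i with _ | i
        · simp only [breakerPrefix, List.range_zero, List.map_nil, h0, makerCells, breakerCells,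
            Finset.range_zero, Finset.image_empty, Finset.union_empty]
          exact ⟨haM, haB⟩
        · have := hleg i (by omega)
          rw [breakerPrefix_succ, hs, hM i, hB i]
          exact this
      · rw [hM n']
        exact hsub
    · refine ⟨2, fun hprem => ?_⟩
      exfalso
      have := hprem 0 (by omega)
      apply hb
      have h1 : makerCells τ b 1 = {a} := by
        simp [makerCells, breakerPrefix, h0]
      rw [h1] at this
      simp only [breakerCells, Finset.range_zero, Finset.image_empty, Finset.union_empty,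
        Finset.mem_union, Finset.mem_singleton, not_or] at this
      exact ⟨this.1.1, this.1.2, this.2⟩

end Vale.Agent.Lib.P062
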