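import Mathlib
import Vale.Agent.Lib.P062.Game

/-!
# Maker wins: bounded-depth winning predicate and proof trees

`MakerWinsIn W n M R`: in the position where Maker owns the cells `M`, Breaker owns the cells `R`
and Maker is to move, Maker can own every cell of some set of `W` within `n` of his own moves,
whatever free cells Breaker claims in reply (on the whole unbounded board).

A proof tree describes a winning plan.  `win c`: Maker claims `c` and now owns a winning set.
`move c k`: Maker claims `c`; the handler `k` treats Breaker's reply.  `alt r t k`: if Breaker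
replies `r`, continue with the tree `t`; otherwise use the handler `k`.  `dflt d`: for every other
reply continue with `d`, which is required to be a valid tree for the position in which Breaker
has not replied at all; this is sound as soon as the reply is not a cell that Maker ever claims
inside `d`.
-/

namespace Vale.Agent.Lib.P062

variable {α : Type}

/-- Maker, to move, owns a set of `W` within `n` of his own moves against every Breaker play. -/
def MakerWinsIn (W : Set (Finset α)) : ℕ → Set α → Set α → Prop
  | 0, _, _ => False
  | n + 1, M, R => ∃ c, c ∉ M ∧ c ∉ R ∧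
      ((∃ C ∈ W, (C : Set α) ⊆ insert c M) ∨
        ∀ r, r ∉ insert c M → r ∉ R → MakerWinsIn W n (insert c M) (insert r R))

theorem MakerWinsIn.mono (W : Set (Finset α)) : ∀ (n m : ℕ) (M R : Set α), n ≤ m →
    MakerWinsIn W n M R → MakerWinsIn W m M R := by
  intro n
  induction n with
  | zero => intro m M R _ h; exact absurd h (by simp [MakerWinsIn])
  | succ n ih =>
    intro m M R hnm h
    obtain ⟨m', rfl⟩ : ∃ m', m = m' + 1 := ⟨m - 1, by omega⟩
    obtain ⟨c, hcM, hcR, h⟩ := h
    refine ⟨c, hcM, hcR, ?_⟩
    rcases h with h | h
    · exact Or.inl h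
    · exact Or.inr (fun r hr1 hr2 => ih m' _ _ (by omega) (h r hr1 hr2))

/-- Proof trees. -/
inductive PT (α : Type) where
  | win (c : α) : PT α
  | move (c : α) (k : PT α) : PT α
  | alt (r : α) (t : PT α) (k : PT α) : PT α
  | dflt (d : PT α) : PT α

/-- The cells Maker may claim somewhere in the tree. -/
def PT.cells : PT α → Set α
  | .win c => {c}
  | .move c k => insert c k.cells
  | .alt _ t k => t.cells ∪ k.cells
  | .dflt d => d.cells

/-- The number of Maker moves the tree needs at most. -/
def PT.height : PT α → ℕ
  | .win _ => 1
  | .move _ k => k.height + 1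
  | .alt _ t k => max t.height k.height
  | .dflt d => d.height

/-- Validity of a tree (`b = true`: Maker to move) or of a handler (`b = false`: Breaker to
reply, `K` the replies already treated by enclosing `alt` nodes). -/
def PT.Valid (W : Set (Finset α)) : Bool → PT α → Set α → Set α → Set α → Prop
  | true, .win c, M, R, _ => c ∉ M ∧ c ∉ R ∧ ∃ C ∈ W, (C : Set α) ⊆ insert c M
  | true, .move c k, M, R, _ => c ∉ M ∧ c ∉ R ∧ PT.Valid W false k (insert c M) R ∅
  | false, .alt r t k, M, R, K =>
      (r ∉ M → r ∉ R → PT.Valid W true t M (insert r R) ∅) ∧ PT.Valid W false k M R (insert r K)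
  | false, .dflt d, M, R, K => PT.Valid W true d M R ∅ ∧ ∀ z ∈ d.cells, z ∈ M ∨ z ∈ R ∨ z ∈ K
  | false, .win _, _, _, _ => False
  | false, .move _ _, _, _, _ => False
  | true, .alt _ _ _, _, _, _ => False
  | true, .dflt _, _, _, _ => False

/-- A further Breaker cell outside the cells of the tree does not hurt. -/
theorem PT.valid_insert (W : Set (Finset α)) : ∀ (t : PT α) (b : Bool) (M R K : Set α) (x : α),
    x ∉ t.cells → t.Valid W b M R K → t.Valid W b M (insert x R) K := by
  intro t
  induction t with
  | win c =>
    intro b M R K x hx h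
    cases b with
    | false => exact h
    | true =>
      obtain ⟨h1, h2, h3⟩ := h
      refine ⟨h1, ?_, h3⟩
      intro hc
      rcases hc with hc | hc
      · exact hx (by simp [PT.cells, hc])
      · exact h2 hc
  | move c k ih =>
    intro b M R K x hx h
    cases b with
    | false => exact h
    | true =>
      obtain ⟨h1, h2, h3⟩ := h
      have hxc : x ≠ c := fun e => hx (by simp [PT.cells, e])
      have hxk : x ∉ k.cells := fun e => hx (by simp [PT.cells, e])
      refine ⟨h1, ?_, ih false _ _ _ x hxk h3⟩
      intro hc
      rcases hc with hc | hc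
      · exact hxc hc.symm
      · exact h2 hc
  | alt r t k iht ihk =>
    intro b M R K x hx h
    cases b with
    | true => exact h
    | false =>
      obtain ⟨h1, h2⟩ := h
      have hxt : x ∉ t.cells := fun e => hx (by simp [PT.cells, e])
      have hxk : x ∉ k.cells := fun e => hx (by simp [PT.cells, e])
      refine ⟨?_, ihk false _ _ _ x hxk h2⟩
      intro hrM hrR
      have hrR' : r ∉ R := fun e => hrR (Set.mem_insert_of_mem _ e)
      have := iht true _ _ _ x hxt (h1 hrM hrR')
      rw [Set.insert_comm]
      exact this
  | dflt d ih =>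
    intro b M R K x hx h
    cases b with
    | true => exact h
    | false =>
      obtain ⟨h1, h2⟩ := h
      have hxd : x ∉ d.cells := fun e => hx (by simpa [PT.cells] using e)
      refine ⟨ih true _ _ _ x hxd h1, ?_⟩
      intro z hz
      rcases h2 z hz with h | h | h
      · exact Or.inl h
      · exact Or.inr (Or.inl (Set.mem_insert_of_mem _ h))
      · exact Or.inr (Or.inr h)

/-- Soundness of proof trees. -/
theorem PT.sound (W : Set (Finset α)) : ∀ (t : PT α) (M R K : Set α),
    (t.Valid W true M R K → MakerWinsIn W t.height M R) ∧
    (t.Valid W false M R K → ∀ r, r ∉ M → r ∉ R → r ∉ K →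
      MakerWinsIn W t.height M (insert r R)) := by
  intro t
  induction t with
  | win c =>
    intro M R K
    refine ⟨?_, fun h => absurd h (by simp [PT.Valid])⟩
    rintro ⟨h1, h2, h3⟩
    exact ⟨c, h1, h2, Or.inl h3⟩
  | move c k ih =>
    intro M R K
    refine ⟨?_, fun h => absurd h (by simp [PT.Valid])⟩
    rintro ⟨h1, h2, h3⟩
    refine ⟨c, h1, h2, Or.inr ?_⟩
    intro r hr1 hr2
    exact (ih (insert c M) R ∅).2 h3 r hr1 hr2 (by simp)
  | alt r0 t k iht ihk =>
    intro M R K
    refine ⟨fun h => absurd h (by simp [PT.Valid]), ?_⟩
    rintro ⟨h1, h2⟩ r hrM hrR hrK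
    by_cases hr : r = r0
    · subst hr
      exact MakerWinsIn.mono W _ _ _ _ (le_max_left _ _) ((iht M (insert r R) ∅).1 (h1 hrM hrR))
    · have hrK' : r ∉ insert r0 K := by
        intro e
        rcases e with e | e
        · exact hr e
        · exact hrK e
      exact MakerWinsIn.mono W _ _ _ _ (le_max_right _ _) ((ihk M R (insert r0 K)).2 h2 r hrM hrR hrK')
  | dflt d ih =>
    intro M R K
    refine ⟨fun h => absurd h (by simp [PT.Valid]), ?_⟩
    rintro ⟨h1, h2⟩ r hrM hrR hrK
    have hrd : r ∉ d.cells := by
      intro e
      rcases h2 r e with h | h | h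
      · exact hrM h
      · exact hrR h
      · exact hrK h
    exact (ih M (insert r R) ∅).1 (PT.valid_insert W d true M R ∅ r hrd h1)

end Vale.Agent.Lib.P062
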