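import Mathlib
import Vale.Agent.Lib.P062.MakerGame

/-!
# A bitboard checker for Maker proof trees of the Snaky game

Cells of a window of the plane are numbered by natural numbers: the index `i` stands for the cell
`(i / D - W0, i % D - W0)`.  Sets of cells are bit masks.  This file has the basic facts about
masks and the masks of the allowed copies of Snaky.
-/

namespace Vale.Agent.Lib.P062

/-- width of the index window -/
def D : ℕ := 64

/-- offset of the index window -/
def W0 : ℕ := 32

/-- the cell with index `i` -/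
def dec (i : ℕ) : Cell := (((i / D : ℕ) : ℤ) - W0, ((i % D : ℕ) : ℤ) - W0)

/-- the set of cells of a bit mask -/
def S (m : ℕ) : Set Cell := {p | ∃ i, m.testBit i = true ∧ dec i = p}

/-- the allowed copies of Snaky in the whole plane -/
def snakyW : Set (Finset Cell) := {C | IsSnakyCopy C}

theorem dec_injective : Function.Injective dec := by
  intro i j h
  simp only [dec, Prod.mk.injEq] at h
  obtain ⟨h1, h2⟩ := h
  have h1' : i / D = j / D := by omega
  have h2' : i % D = j % D := by omega
  rw [← Nat.div_add_mod i D, ← Nat.div_add_mod j D, h1', h2']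

theorem dec_mem_S (m c : ℕ) : dec c ∈ S m ↔ m.testBit c = true := by
  constructor
  · rintro ⟨i, hi, he⟩
    rw [← dec_injective he]; exact hi
  · intro h; exact ⟨c, h, rfl⟩

theorem S_zero : S 0 = ∅ := by
  ext p
  simp [S]

theorem S_or (a b : ℕ) : S (a ||| b) = S a ∪ S b := by
  ext p
  simp only [S, Set.mem_ofPred_eq, Set.mem_union, Nat.testBit_or, Bool.or_eq_true]
  constructor
  · rintro ⟨i, h | h, he⟩
    · exact Or.inl ⟨i, h, he⟩
    · exact Or.inr ⟨i, h, he⟩
  · rintro (⟨i, h, he⟩ | ⟨i, h, he⟩)
    · exact ⟨i, Or.inl h, he⟩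
    · exact ⟨i, Or.inr h, he⟩

theorem S_bit (c : ℕ) : S (1 <<< c) = {dec c} := by
  ext p
  simp only [S, Set.mem_ofPred_eq, Set.mem_singleton_iff, Nat.one_shiftLeft, Nat.testBit_two_pow,
    decide_eq_true_eq]
  constructor
  · rintro ⟨i, rfl, he⟩; exact he.symm
  · rintro rfl; exact ⟨c, rfl, rfl⟩

theorem S_or_bit (m c : ℕ) : S (m ||| (1 <<< c)) = insert (dec c) (S m) := by
  rw [S_or, S_bit]
  ext p
  simp [or_comm]

theorem S_subset_of_and (z x : ℕ) (h : z &&& x = z) : S z ⊆ S x := by
  rintro p ⟨i, hi, he⟩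
  refine ⟨i, ?_, he⟩
  have : (z &&& x).testBit i = true := by rw [h]; exact hi
  rw [Nat.testBit_and, Bool.and_eq_true] at this
  exact this.2

/-- the eight oriented shapes, as offsets inside their bounding boxes -/
def offs : ℕ → List (ℕ × ℕ)
  | 0 => [(0, 0), (1, 0), (2, 0), (3, 0), (3, 1), (4, 1)]
  | 1 => [(4, 0), (3, 0), (2, 0), (1, 0), (1, 1), (0, 1)]
  | 2 => [(0, 1), (1, 1), (2, 1), (3, 1), (3, 0), (4, 0)]
  | 3 => [(4, 1), (3, 1), (2, 1), (1, 1), (1, 0), (0, 0)]
  | 4 => [(0, 0), (0, 1), (0, 2), (0, 3), (1, 3), (1, 4)]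
  | 5 => [(1, 0), (1, 1), (1, 2), (1, 3), (0, 3), (0, 4)]
  | 6 => [(0, 4), (0, 3), (0, 2), (0, 1), (1, 1), (1, 0)]
  | 7 => [(1, 4), (1, 3), (1, 2), (1, 1), (0, 1), (0, 0)]
  | _ => []

/-- the bit mask of an oriented shape placed at index `0` -/
def shp (o : ℕ) : ℕ := (offs o).foldl (fun acc p => acc ||| (1 <<< (p.1 * D + p.2))) 0

/-- the height of the bounding box of an oriented shape -/
def hgt (o : ℕ) : ℕ := if o < 4 then 2 else 5

theorem shp_testBit : ∀ o < 8, ∀ p ∈ offs o, (shp o).testBit (p.1 * D + p.2) = true ∧ p.2 < hgt o := by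
  decide

theorem mem_S_shift (s base dx dy : ℕ) (hb : base % D + dy < D)
    (hs : s.testBit (dx * D + dy) = true) :
    ((((base / D + dx : ℕ) : ℤ) - W0, ((base % D + dy : ℕ) : ℤ) - W0) : Cell) ∈ S (s <<< base) := by
  refine ⟨base + (dx * D + dy), ?_, ?_⟩
  · rw [Nat.testBit_shiftLeft]
    simp only [ge_iff_le, Nat.le_add_right, decide_true, Bool.true_and, Nat.add_sub_cancel_left]
    exact hs
  · have hD : 0 < D := by decide
    have e : base + (dx * D + dy) = (base % D + dy) + (base / D + dx) * D := by
      have := Nat.div_add_mod base D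
      have h2 : (base / D + dx) * D = D * (base / D) + dx * D := by ring
      omega
    have e1 : (base + (dx * D + dy)) / D = base / D + dx := by
      rw [e, Nat.add_mul_div_right _ _ hD, Nat.div_eq_of_lt hb, Nat.zero_add]
    have e2 : (base + (dx * D + dy)) % D = base % D + dy := by
      rw [e, Nat.add_mul_mod_self_right, Nat.mod_eq_of_lt hb]
    simp only [dec, e1, e2]

set_option linter.unreachableTactic false in
set_option linter.unusedTactic false in
set_option linter.unnecessarySeqFocus false in
theorem copy_ok (o base : ℕ) (ho : o < 8) (hb : base % D + hgt o ≤ D) :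
    ∃ C, IsSnakyCopy C ∧ (C : Set Cell) ⊆ S (shp o <<< base) := by
  have key : ∀ p ∈ offs o,
      ((((base / D + p.1 : ℕ) : ℤ) - W0, ((base % D + p.2 : ℕ) : ℤ) - W0) : Cell) ∈
        S (shp o <<< base) := by
    intro p hp
    obtain ⟨h1, h2⟩ := shp_testBit o ho p hp
    exact mem_S_shift _ _ _ _ (by omega) h1
  have mk : ∀ (swap : Bool) (a b : ℤ) (vx vy : ℤ), (a = 1 ∨ a = -1) → (b = 1 ∨ b = -1) →
      (∀ q ∈ snaky, (((base / D : ℕ) : ℤ) - W0 + vx, ((base % D : ℕ) : ℤ) - W0 + vy) +
        signedPerm swap a b q ∈ S (shp o <<< base)) →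
      ∃ C, IsSnakyCopy C ∧ (C : Set Cell) ⊆ S (shp o <<< base) := by
    intro swap a b vx vy ha hb' hq
    refine ⟨snaky.image (fun p => (((base / D : ℕ) : ℤ) - W0 + vx,
      ((base % D : ℕ) : ℤ) - W0 + vy) + signedPerm swap a b p), ⟨swap, a, b, _, ha, hb', rfl⟩, ?_⟩
    intro p hp
    simp only [Finset.coe_image, Set.mem_image, Finset.mem_coe] at hp
    obtain ⟨q, hq', rfl⟩ := hp
    exact hq q hq'
  have conv : ∀ (x y : ℤ) (dx dy : ℕ), (dx, dy) ∈ offs o →
      x = ((base / D + dx : ℕ) : ℤ) - W0 → y = ((base % D + dy : ℕ) : ℤ) - W0 →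
      ((x, y) : Cell) ∈ S (shp o <<< base) := by
    intro x y dx dy hp hx hy
    rw [hx, hy]
    exact key (dx, dy) hp
  interval_cases o
  · refine mk false 1 1 0 0 (Or.inl rfl) (Or.inl rfl) ?_
    intro q hq
    simp only [snaky, Finset.mem_insert, Finset.mem_singleton] at hq
    rcases hq with rfl | rfl | rfl | rfl | rfl | rfl
    · exact conv _ _ 0 0 (by decide) (by simp [signedPerm] <;> ring) (by simp [signedPerm] <;> ring)
    · exact conv _ _ 1 0 (by decide) (by simp [signedPerm] <;> ring) (by simp [signedPerm] <;> ring)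
    · exact conv _ _ 2 0 (by decide) (by simp [signedPerm] <;> ring) (by simp [signedPerm] <;> ring)
    · exact conv _ _ 3 0 (by decide) (by simp [signedPerm] <;> ring) (by simp [signedPerm] <;> ring)
    · exact conv _ _ 3 1 (by decide) (by simp [signedPerm] <;> ring) (by simp [signedPerm] <;> ring)
    · exact conv _ _ 4 1 (by decide) (by simp [signedPerm] <;> ring) (by simp [signedPerm] <;> ring)
  · refine mk false (-1) 1 4 0 (Or.inr rfl) (Or.inl rfl) ?_
    intro q hq
    simp only [snaky, Finset.mem_insert, Finset.mem_singleton] at hq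
    rcases hq with rfl | rfl | rfl | rfl | rfl | rfl
    · exact conv _ _ 4 0 (by decide) (by simp [signedPerm] <;> ring) (by simp [signedPerm] <;> ring)
    · exact conv _ _ 3 0 (by decide) (by simp [signedPerm] <;> ring) (by simp [signedPerm] <;> ring)
    · exact conv _ _ 2 0 (by decide) (by simp [signedPerm] <;> ring) (by simp [signedPerm] <;> ring)
    · exact conv _ _ 1 0 (by decide) (by simp [signedPerm] <;> ring) (by simp [signedPerm] <;> ring)
    · exact conv _ _ 1 1 (by decide) (by simp [signedPerm] <;> ring) (by simp [signedPerm] <;> ring)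
    · exact conv _ _ 0 1 (by decide) (by simp [signedPerm] <;> ring) (by simp [signedPerm] <;> ring)
  · refine mk false 1 (-1) 0 1 (Or.inl rfl) (Or.inr rfl) ?_
    intro q hq
    simp only [snaky, Finset.mem_insert, Finset.mem_singleton] at hq
    rcases hq with rfl | rfl | rfl | rfl | rfl | rfl
    · exact conv _ _ 0 1 (by decide) (by simp [signedPerm] <;> ring) (by simp [signedPerm] <;> ring)
    · exact conv _ _ 1 1 (by decide) (by simp [signedPerm] <;> ring) (by simp [signedPerm] <;> ring)
    · exact conv _ _ 2 1 (by decide) (by simp [signedPerm] <;> ring) (by simp [signedPerm] <;> ring)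
    · exact conv _ _ 3 1 (by decide) (by simp [signedPerm] <;> ring) (by simp [signedPerm] <;> ring)
    · exact conv _ _ 3 0 (by decide) (by simp [signedPerm] <;> ring) (by simp [signedPerm] <;> ring)
    · exact conv _ _ 4 0 (by decide) (by simp [signedPerm] <;> ring) (by simp [signedPerm] <;> ring)
  · refine mk false (-1) (-1) 4 1 (Or.inr rfl) (Or.inr rfl) ?_
    intro q hq
    simp only [snaky, Finset.mem_insert, Finset.mem_singleton] at hq
    rcases hq with rfl | rfl | rfl | rfl | rfl | rfl
    · exact conv _ _ 4 1 (by decide) (by simp [signedPerm] <;> ring) (by simp [signedPerm] <;> ring)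
    · exact conv _ _ 3 1 (by decide) (by simp [signedPerm] <;> ring) (by simp [signedPerm] <;> ring)
    · exact conv _ _ 2 1 (by decide) (by simp [signedPerm] <;> ring) (by simp [signedPerm] <;> ring)
    · exact conv _ _ 1 1 (by decide) (by simp [signedPerm] <;> ring) (by simp [signedPerm] <;> ring)
    · exact conv _ _ 1 0 (by decide) (by simp [signedPerm] <;> ring) (by simp [signedPerm] <;> ring)
    · exact conv _ _ 0 0 (by decide) (by simp [signedPerm] <;> ring) (by simp [signedPerm] <;> ring)
  · refine mk true 1 1 0 0 (Or.inl rfl) (Or.inl rfl) ?_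
    intro q hq
    simp only [snaky, Finset.mem_insert, Finset.mem_singleton] at hq
    rcases hq with rfl | rfl | rfl | rfl | rfl | rfl
    · exact conv _ _ 0 0 (by decide) (by simp [signedPerm] <;> ring) (by simp [signedPerm] <;> ring)
    · exact conv _ _ 0 1 (by decide) (by simp [signedPerm] <;> ring) (by simp [signedPerm] <;> ring)
    · exact conv _ _ 0 2 (by decide) (by simp [signedPerm] <;> ring) (by simp [signedPerm] <;> ring)
    · exact conv _ _ 0 3 (by decide) (by simp [signedPerm] <;> ring) (by simp [signedPerm] <;> ring)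
    · exact conv _ _ 1 3 (by decide) (by simp [signedPerm] <;> ring) (by simp [signedPerm] <;> ring)
    · exact conv _ _ 1 4 (by decide) (by simp [signedPerm] <;> ring) (by simp [signedPerm] <;> ring)
  · refine mk true (-1) 1 1 0 (Or.inr rfl) (Or.inl rfl) ?_
    intro q hq
    simp only [snaky, Finset.mem_insert, Finset.mem_singleton] at hq
    rcases hq with rfl | rfl | rfl | rfl | rfl | rfl
    · exact conv _ _ 1 0 (by decide) (by simp [signedPerm] <;> ring) (by simp [signedPerm] <;> ring)
    · exact conv _ _ 1 1 (by decide) (by simp [signedPerm] <;> ring) (by simp [signedPerm] <;> ring)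
    · exact conv _ _ 1 2 (by decide) (by simp [signedPerm] <;> ring) (by simp [signedPerm] <;> ring)
    · exact conv _ _ 1 3 (by decide) (by simp [signedPerm] <;> ring) (by simp [signedPerm] <;> ring)
    · exact conv _ _ 0 3 (by decide) (by simp [signedPerm] <;> ring) (by simp [signedPerm] <;> ring)
    · exact conv _ _ 0 4 (by decide) (by simp [signedPerm] <;> ring) (by simp [signedPerm] <;> ring)
  · refine mk true 1 (-1) 0 4 (Or.inl rfl) (Or.inr rfl) ?_
    intro q hq
    simp only [snaky, Finset.mem_insert, Finset.mem_singleton] at hq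
    rcases hq with rfl | rfl | rfl | rfl | rfl | rfl
    · exact conv _ _ 0 4 (by decide) (by simp [signedPerm] <;> ring) (by simp [signedPerm] <;> ring)
    · exact conv _ _ 0 3 (by decide) (by simp [signedPerm] <;> ring) (by simp [signedPerm] <;> ring)
    · exact conv _ _ 0 2 (by decide) (by simp [signedPerm] <;> ring) (by simp [signedPerm] <;> ring)
    · exact conv _ _ 0 1 (by decide) (by simp [signedPerm] <;> ring) (by simp [signedPerm] <;> ring)
    · exact conv _ _ 1 1 (by decide) (by simp [signedPerm] <;> ring) (by simp [signedPerm] <;> ring)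
    · exact conv _ _ 1 0 (by decide) (by simp [signedPerm] <;> ring) (by simp [signedPerm] <;> ring)
  · refine mk true (-1) (-1) 1 4 (Or.inr rfl) (Or.inr rfl) ?_
    intro q hq
    simp only [snaky, Finset.mem_insert, Finset.mem_singleton] at hq
    rcases hq with rfl | rfl | rfl | rfl | rfl | rfl
    · exact conv _ _ 1 4 (by decide) (by simp [signedPerm] <;> ring) (by simp [signedPerm] <;> ring)
    · exact conv _ _ 1 3 (by decide) (by simp [signedPerm] <;> ring) (by simp [signedPerm] <;> ring)
    · exact conv _ _ 1 2 (by decide) (by simp [signedPerm] <;> ring) (by simp [signedPerm] <;> ring)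
    · exact conv _ _ 1 1 (by decide) (by simp [signedPerm] <;> ring) (by simp [signedPerm] <;> ring)
    · exact conv _ _ 0 1 (by decide) (by simp [signedPerm] <;> ring) (by simp [signedPerm] <;> ring)
    · exact conv _ _ 0 0 (by decide) (by simp [signedPerm] <;> ring) (by simp [signedPerm] <;> ring)

theorem not_mem_S_of_testBit_or (m r c : ℕ) (h : (m ||| r).testBit c = false) :
    dec c ∉ S m ∧ dec c ∉ S r := by
  rw [Nat.testBit_or, Bool.or_eq_false_iff] at h
  rw [dec_mem_S, dec_mem_S]
  simp [h.1, h.2]

theorem S_xor_and (r r' z : ℕ) (h : (r ^^^ r') &&& z = 0) :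
    ∀ x ∈ S r, x ∉ S r' → x ∉ S z := by
  rintro x ⟨i, hi, rfl⟩ hx hz
  rw [dec_mem_S] at hx hz
  have : ((r ^^^ r') &&& z).testBit i = true := by
    rw [Nat.testBit_and, Nat.testBit_xor, hi, hz]
    simp only [Bool.not_eq_true] at hx
    simp [hx]
  rw [h] at this
  simp at this

end Vale.Agent.Lib.P062
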