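import Mathlib
import Vale.Agent.Lib.P062.MakerGame

/-!
# Robust wins

`RobustWin W n M R Z`: Maker, to move in the position `(M, R)`, wins within `n` moves, and this
stays true when Breaker is given any set `X` of extra cells that avoids the zone `Z`.
`RobustReply W n M R K Z`: the same for the position in which Breaker is to reply, for every reply
outside `K`.
-/

namespace Vale.Agent.Lib.P062

variable {α : Type}

/-- Maker wins within `n` moves even if Breaker gets extra cells outside `Z`. -/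
def RobustWin (W : Set (Finset α)) (n : ℕ) (M R Z : Set α) : Prop :=
  ∀ X : Set α, (∀ x ∈ X, x ∉ Z) → MakerWinsIn W n M (R ∪ X)

/-- After every Breaker reply outside `K`, Maker wins within `n` moves, even if Breaker gets
extra cells outside `Z`. -/
def RobustReply (W : Set (Finset α)) (n : ℕ) (M R K Z : Set α) : Prop :=
  ∀ X : Set α, (∀ x ∈ X, x ∉ Z) → ∀ r, r ∉ M → r ∉ R ∪ X → r ∉ K →
    MakerWinsIn W n M (insert r (R ∪ X))

theorem RobustWin.win (W : Set (Finset α)) (M R Z : Set α) (c : α) (hM : c ∉ M) (hR : c ∉ R)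
    (hW : ∃ C ∈ W, (C : Set α) ⊆ insert c M) (hZ : c ∈ Z) : RobustWin W 1 M R Z := by
  intro X hX
  refine ⟨c, hM, ?_, Or.inl hW⟩
  rintro (h | h)
  · exact hR h
  · exact hX c h hZ

theorem RobustWin.move (W : Set (Finset α)) (n : ℕ) (M R Z Z' : Set α) (c : α) (hM : c ∉ M)
    (hR : c ∉ R) (hc : c ∈ Z') (hZ : Z ⊆ Z') (h : RobustReply W n (insert c M) R ∅ Z) :
    RobustWin W (n + 1) M R Z' := by
  intro X hX
  refine ⟨c, hM, ?_, Or.inr ?_⟩
  · rintro (h' | h')
    · exact hR h'
    · exact hX c h' hc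
  · intro r hr1 hr2
    exact h X (fun x hx hxz => hX x hx (hZ hxz)) r hr1 hr2 (by simp)

theorem RobustReply.alt (W : Set (Finset α)) (n n1 n2 : ℕ) (M R K Z Z1 Z2 : Set α) (r0 : α)
    (h1 : r0 ∉ M → r0 ∉ R → RobustWin W n1 M (insert r0 R) Z1)
    (h2 : RobustReply W n2 M R (insert r0 K) Z2) (hZ1 : Z1 ⊆ Z) (hZ2 : Z2 ⊆ Z)
    (hn1 : n1 ≤ n) (hn2 : n2 ≤ n) : RobustReply W n M R K Z := by
  intro X hX r hrM hrR hrK
  by_cases hr : r = r0
  · subst hr
    have hrR' : r ∉ R := fun e => hrR (Or.inl e)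
    have := h1 hrM hrR' X (fun x hx hxz => hX x hx (hZ1 hxz))
    have e : insert r R ∪ X = insert r (R ∪ X) := Set.insert_union
    rw [e] at this
    exact MakerWinsIn.mono W _ _ _ _ hn1 this
  · have hrK' : r ∉ insert r0 K := by
      rintro (e | e)
      · exact hr e
      · exact hrK e
    exact MakerWinsIn.mono W _ _ _ _ hn2
      (h2 X (fun x hx hxz => hX x hx (hZ2 hxz)) r hrM hrR hrK')

theorem RobustReply.dflt (W : Set (Finset α)) (n : ℕ) (M R K Z : Set α)
    (h : RobustWin W n M R Z) (hZ : ∀ z ∈ Z, z ∈ M ∨ z ∈ R ∨ z ∈ K) :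
    RobustReply W n M R K Z := by
  intro X hX r hrM hrR hrK
  have hrZ : r ∉ Z := by
    intro e
    rcases hZ r e with h' | h' | h'
    · exact hrM h'
    · exact hrR (Or.inl h')
    · exact hrK h'
  have := h (insert r X) (by
    intro x hx
    rcases hx with rfl | hx
    · exact hrZ
    · exact hX x hx)
  have e : R ∪ insert r X = insert r (R ∪ X) := Set.union_insert
  rw [e] at this
  exact this

theorem RobustWin.weaken (W : Set (Finset α)) (n n' : ℕ) (M R0 R Z : Set α)
    (h : RobustWin W n M R0 Z) (hn : n ≤ n') (hR : R0 ⊆ R) (hRZ : ∀ x ∈ R, x ∉ R0 → x ∉ Z) :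
    RobustWin W n' M R Z := by
  classical
  intro X hX
  have := h (X ∪ {x | x ∈ R ∧ x ∉ R0}) (by
    rintro x (hx | ⟨hx1, hx2⟩)
    · exact hX x hx
    · exact hRZ x hx1 hx2)
  have e : R0 ∪ (X ∪ {x | x ∈ R ∧ x ∉ R0}) = R ∪ X := by
    ext x
    simp only [Set.mem_union, Set.mem_ofPred_eq]
    constructor
    · rintro (h' | h' | ⟨h', _⟩)
      · exact Or.inl (hR h')
      · exact Or.inr h'
      · exact Or.inl h'
    · rintro (h' | h')
      · by_cases hx : x ∈ R0
        · exact Or.inl hx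
        · exact Or.inr (Or.inr ⟨h', hx⟩)
      · exact Or.inr (Or.inl h')
  rw [e] at this
  exact MakerWinsIn.mono W _ _ _ _ hn this

theorem RobustWin.makerWinsIn (W : Set (Finset α)) (n : ℕ) (M R Z : Set α)
    (h : RobustWin W n M R Z) : MakerWinsIn W n M R := by
  have := h ∅ (by simp)
  simpa using this

theorem RobustReply.makerWinsIn (W : Set (Finset α)) (n : ℕ) (M R K Z : Set α)
    (h : RobustReply W n M R K Z) (r : α) (hrM : r ∉ M) (hrR : r ∉ R) (hrK : r ∉ K) :
    MakerWinsIn W n M (insert r R) := by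
  have := h ∅ (by simp) r hrM (by simpa using hrR) hrK
  simpa using this

end Vale.Agent.Lib.P062
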