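import Mathlib
import Vale.Agent.Lib.P062.MakerRobust
import Vale.Agent.Lib.P062.MakerCheck

/-!
# A kernel-evaluable checker for Maker proof trees of the Snaky game

An index tree describes a winning plan for Maker (cells are indices, sets are bit masks).
`win c o base`: Maker claims `c` and owns the copy of Snaky with orientation `o` whose bounding
box has lower left corner `base`.  `move c k`: Maker claims `c`, the handler `k` treats the reply.
`alt r t k`: if Breaker replies `r` continue with `t`, otherwise use the handler `k`.
`dflt d`: for every other reply continue with `d`; `d` is checked in the position where Breaker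
has not replied, and every cell that Maker may claim in `d` must be occupied or treated by an
enclosing `alt`.  `ref i`: the position is entry `i` of a table of positions that were checked
before (possibly with further Breaker cells outside the cells Maker may claim there).

`chk` returns a mask containing every cell Maker may claim in the tree.
-/

namespace Vale.Agent.Lib.P062

/-- index trees -/
inductive IT where
  | win (c o base : ℕ) : IT
  | move (c : ℕ) (k : IT) : IT
  | alt (r : ℕ) (t : IT) (k : IT) : IT
  | dflt (d : IT) : IT
  | ref (i : ℕ) : IT

/-- The checker.  `T i = (m, r, z, n)` is the table of checked positions: Maker mask, Breaker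
mask, zone mask, number of moves.  Only entries below `lim` may be used.  The Boolean says
whether Maker is to move (`true`) or Breaker is to reply (`false`); `n` bounds the number of
Maker moves, `m` and `r` are the masks of Maker and Breaker, `K` the replies treated so far. -/
def chk (T : ℕ → ℕ × ℕ × ℕ × ℕ) (lim : ℕ) : Bool → IT → ℕ → ℕ → ℕ → ℕ → Option ℕ
  | true, .win c o base, n, m, r, _ =>
      if 1 ≤ n ∧ (m ||| r).testBit c = false ∧ o < 8 ∧ base % D + hgt o ≤ D ∧
          (shp o <<< base) &&& (m ||| (1 <<< c)) = shp o <<< base then some (1 <<< c) else none
  | true, .move c k, n, m, r, _ =>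
      if n = 0 ∨ (m ||| r).testBit c = true then none else
        match chk T lim false k (n - 1) (m ||| (1 <<< c)) r 0 with
        | some z => some (z ||| (1 <<< c))
        | none => none
  | true, .ref i, n, m, r, _ =>
      match T i with
      | (m', r', z', n') =>
        if i < lim ∧ m' = m ∧ r' &&& r = r' ∧ (r ^^^ r') &&& z' = 0 ∧ n' ≤ n then some z' else none
  | false, .alt r0 t k, n, m, r, K =>
      if (m ||| r).testBit r0 = true then none else
        match chk T lim true t n m (r ||| (1 <<< r0)) 0 with
        | some z1 =>
          match chk T lim false k n m r (K ||| (1 <<< r0)) with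
          | some z2 => some (z1 ||| z2)
          | none => none
        | none => none
  | false, .dflt d, n, m, r, K =>
      match chk T lim true d n m r 0 with
      | some z => if z &&& (m ||| r ||| K) = z then some z else none
      | none => none
  | false, .win _ _ _, _, _, _, _ => none
  | false, .move _ _, _, _, _, _ => none
  | false, .ref _, _, _, _, _ => none
  | true, .alt _ _ _, _, _, _, _ => none
  | true, .dflt _, _, _, _, _ => none

/-- the statement made by entry `j` of the table -/
def Entry (T : ℕ → ℕ × ℕ × ℕ × ℕ) (j : ℕ) : Prop :=
  RobustWin snakyW (T j).2.2.2 (S (T j).1) (S (T j).2.1) (S (T j).2.2.1)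

/-- soundness of the checker -/
theorem chk_sound (T : ℕ → ℕ × ℕ × ℕ × ℕ) (lim : ℕ) (hT : ∀ i < lim, Entry T i) :
    ∀ (t : IT) (b : Bool) (n m r K z : ℕ), chk T lim b t n m r K = some z →
      (b = true → RobustWin snakyW n (S m) (S r) (S z)) ∧
      (b = false → RobustReply snakyW n (S m) (S r) (S K) (S z)) := by
  intro t
  induction t with
  | win c o base =>
    intro b n m r K z h
    cases b with
    | false => simp [chk] at h
    | true =>
      simp only [chk] at h
      split_ifs at h with hc
      obtain ⟨h0, h1, h2, h3, h4⟩ := hc
      simp only [Option.some.injEq] at h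
      subst h
      obtain ⟨hm, hr⟩ := not_mem_S_of_testBit_or m r c h1
      refine ⟨fun _ => ?_, fun hb => absurd hb (by simp)⟩
      have hw : RobustWin snakyW 1 (S m) (S r) (S (1 <<< c)) := by
        apply RobustWin.win snakyW (S m) (S r) _ (dec c) hm hr
        · obtain ⟨C, hC, hsub⟩ := copy_ok o base h2 h3
          refine ⟨C, hC, ?_⟩
          rw [← S_or_bit]
          exact hsub.trans (S_subset_of_and _ _ h4)
        · rw [S_bit]; rfl
      exact RobustWin.weaken snakyW 1 n _ _ _ _ hw h0 (fun x hx => hx) (fun x hx hx' => absurd hx hx')
  | move c k ih =>
    intro b n m r K z h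
    cases b with
    | false => simp [chk] at h
    | true =>
      simp only [chk] at h
      split_ifs at h with hc
      rw [not_or] at hc
      obtain ⟨hn, hc⟩ := hc
      cases hk : chk T lim false k (n - 1) (m ||| (1 <<< c)) r 0 with
      | none => rw [hk] at h; simp at h
      | some z' =>
        rw [hk] at h
        simp only [Option.some.injEq] at h
        subst h
        have hv := (ih false _ _ _ _ _ hk).2 rfl
        rw [S_or_bit, S_zero] at hv
        have hc' : (m ||| r).testBit c = false := by simpa using hc
        obtain ⟨hm, hr⟩ := not_mem_S_of_testBit_or m r c hc'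
        refine ⟨fun _ => ?_, fun hb => absurd hb (by simp)⟩
        have hn' : n = (n - 1) + 1 := by omega
        rw [hn']
        apply RobustWin.move snakyW (n - 1) (S m) (S r) (S z') _ (dec c) hm hr _ _ hv
        · rw [S_or_bit]; exact Set.mem_insert _ _
        · rw [S_or_bit]; exact Set.subset_insert _ _
  | alt r0 t k iht ihk =>
    intro b n m r K z h
    cases b with
    | true => simp [chk] at h
    | false =>
      simp only [chk] at h
      split_ifs at h with hc
      cases ht : chk T lim true t n m (r ||| (1 <<< r0)) 0 with
      | none => rw [ht] at h; simp at h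
      | some z1 =>
        cases hk : chk T lim false k n m r (K ||| (1 <<< r0)) with
        | none => rw [ht, hk] at h; simp at h
        | some z2 =>
          rw [ht, hk] at h
          simp only [Option.some.injEq] at h
          subst h
          have hvt := (iht true _ _ _ _ _ ht).1 rfl
          have hvk := (ihk false _ _ _ _ _ hk).2 rfl
          rw [S_or_bit] at hvt hvk
          refine ⟨fun hb => absurd hb (by simp), fun _ => ?_⟩
          apply RobustReply.alt snakyW n n n (S m) (S r) (S K) _ (S z1) (S z2) (dec r0)
            (fun _ _ => hvt) hvk _ _ le_rfl le_rfl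
          · rw [S_or]; exact Set.subset_union_left
          · rw [S_or]; exact Set.subset_union_right
  | dflt d ih =>
    intro b n m r K z h
    cases b with
    | true => simp [chk] at h
    | false =>
      simp only [chk] at h
      cases hd : chk T lim true d n m r 0 with
      | none => rw [hd] at h; simp at h
      | some z' =>
        rw [hd] at h
        simp only at h
        split_ifs at h with hz
        simp only [Option.some.injEq] at h
        subst h
        have hv := (ih true _ _ _ _ _ hd).1 rfl
        refine ⟨fun hb => absurd hb (by simp), fun _ => ?_⟩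
        apply RobustReply.dflt snakyW n (S m) (S r) (S K) (S z') hv
        intro p hp
        have := S_subset_of_and _ _ hz hp
        rw [S_or, S_or] at this
        rcases this with (h | h) | h
        · exact Or.inl h
        · exact Or.inr (Or.inl h)
        · exact Or.inr (Or.inr h)
  | ref i =>
    intro b n m r K z h
    cases b with
    | false => simp [chk] at h
    | true =>
      simp only [chk] at h
      have hTi := hT i
      unfold Entry at hTi
      rcases hTe : T i with ⟨m', r', z', n'⟩
      rw [hTe] at h hTi
      simp only at h hTi
      split_ifs at h with hc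
      obtain ⟨h1, h2, h3, h4, h5⟩ := hc
      simp only [Option.some.injEq] at h
      subst h
      subst h2
      refine ⟨fun _ => ?_, fun hb => absurd hb (by simp)⟩
      exact RobustWin.weaken snakyW n' n _ _ _ _ (hTi h1) h5 (S_subset_of_and _ _ h3)
        (S_xor_and _ _ _ h4)

/-- one more entry of the table -/
theorem entry_step (T : ℕ → ℕ × ℕ × ℕ × ℕ) (i : ℕ) (h : ∀ j < i, Entry T j) (t : IT)
    (hc : chk T i true t (T i).2.2.2 (T i).1 (T i).2.1 0 = some (T i).2.2.1) :
    ∀ j < i + 1, Entry T j := by
  intro j hj
  by_cases hji : j < i
  · exact h j hji
  · have : j = i := by omega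
    subst this
    exact (chk_sound T j h t true _ _ _ 0 _ hc).1 rfl

/-- a checked tree for the position `(m, r)`, Maker to move -/
theorem win_of_chk (T : ℕ → ℕ × ℕ × ℕ × ℕ) (lim : ℕ) (hT : ∀ i < lim, Entry T i) (t : IT)
    (n m r : ℕ) (h : (chk T lim true t n m r 0).isSome = true) :
    MakerWinsIn snakyW n (S m) (S r) := by
  obtain ⟨z, hz⟩ := Option.isSome_iff_exists.mp h
  exact RobustWin.makerWinsIn _ _ _ _ _ ((chk_sound T lim hT t true n m r 0 z hz).1 rfl)

/-- a checked handler for the position `(m, r)`, Breaker to reply outside `K` -/
theorem reply_of_chk (T : ℕ → ℕ × ℕ × ℕ × ℕ) (lim : ℕ) (hT : ∀ i < lim, Entry T i) (t : IT)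
    (n m r K : ℕ) (h : (chk T lim false t n m r K).isSome = true) :
    ∀ p : Cell, p ∉ S m → p ∉ S r → p ∉ S K → MakerWinsIn snakyW n (S m) (insert p (S r)) := by
  obtain ⟨z, hz⟩ := Option.isSome_iff_exists.mp h
  intro p h1 h2 h3
  exact RobustReply.makerWinsIn _ _ _ _ _ _ ((chk_sound T lim hT t false n m r K z hz).2 rfl)
    p h1 h2 h3

end Vale.Agent.Lib.P062
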