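import Vale.Agent.Lib.P062.Maker

/-!
# A won position for Maker leaves no winning strategy for Breaker

If the empty position belongs to the inductive family `MW` of positions won by Maker, then no
Breaker strategy wins the Snaky game on the whole plane in the sense of `BreakerWins`.
-/

namespace Vale.Agent.Lib.P062

theorem makerMoves_congr (m m' : ℕ → Cell) (n : ℕ) (h : ∀ k, k < n → m k = m' k) :
    makerMoves m n = makerMoves m' n := by
  unfold makerMoves
  apply List.map_congr_left
  intro k hk
  exact h k (List.mem_range.mp hk)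

theorem breakerMoves_succ (σ : BreakerStrategy) (m : ℕ → Cell) (n : ℕ) :
    breakerMoves σ m (n + 1) =
      breakerMoves σ m n ++ [σ (makerMoves m (n + 1)) (breakerMoves σ m n)] := rfl

theorem breakerMoves_congr (σ : BreakerStrategy) (m m' : ℕ → Cell) :
    ∀ n : ℕ, (∀ k, k < n → m k = m' k) → breakerMoves σ m n = breakerMoves σ m' n
  | 0, _ => rfl
  | n + 1, h => by
    have h1 := breakerMoves_congr σ m m' n (fun k hk => h k (by omega))
    have h2 := makerMoves_congr m m' (n + 1) h
    rw [breakerMoves_succ, breakerMoves_succ, h1, h2]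

theorem exists_cell_notMem (l1 l2 : List Cell) : ∃ c : Cell, c ∉ l1 ∧ c ∉ l2 := by
  obtain ⟨c, hc⟩ := Infinite.exists_notMem_finset (l1.toFinset ∪ l2.toFinset)
  refine ⟨c, fun h1 => hc ?_, fun h2 => hc ?_⟩
  · exact Finset.mem_union_left _ (List.mem_toFinset.mpr h1)
  · exact Finset.mem_union_right _ (List.mem_toFinset.mpr h2)

/-- Against a Breaker strategy with the property required by `BreakerWins` on the whole plane,
no position of `MW` can be reached by a play in which Maker's moves are legal. -/
theorem MW.not_reached (σ : BreakerStrategy)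
    (hσ : ∀ (m : ℕ → Cell) (n : ℕ), MakerLegal Set.univ σ m n →
      (∀ C ∈ snakyCopiesIn Set.univ, ¬ ∀ c ∈ C, c ∈ makerMoves m (n + 1)) ∧
      ((σ (makerMoves m (n + 1)) (breakerMoves σ m n) ∈ (Set.univ : Set Cell) ∧
          σ (makerMoves m (n + 1)) (breakerMoves σ m n) ∉ makerMoves m (n + 1) ∧
          σ (makerMoves m (n + 1)) (breakerMoves σ m n) ∉ breakerMoves σ m n) ∨
        ∀ c ∈ (Set.univ : Set Cell), c ∈ makerMoves m (n + 1) ∨ c ∈ breakerMoves σ m n))
    {M B : Finset Cell} (h : MW M B) :
    ∀ (m : ℕ → Cell) (n : ℕ),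
      (∀ k, k < n → m k ∉ makerMoves m k ∧ m k ∉ breakerMoves σ m k) →
      (∀ c, c ∈ M ↔ c ∈ makerMoves m n) → (∀ c, c ∈ B ↔ c ∈ breakerMoves σ m n) → False := by
  induction h with
  | won M B C hC hsub =>
    intro m n hleg hM hB
    have hne : C.Nonempty := by
      obtain ⟨swap, a, b, t, _, _, rfl⟩ := hC
      exact ⟨_, Finset.mem_image_of_mem _ (show ((0 : ℤ), (0 : ℤ)) ∈ snaky by simp [snaky])⟩
    obtain ⟨c0, hc0⟩ := hne
    cases n with
    | zero =>
      have h0 := (hM c0).mp (hsub hc0)
      simp [makerMoves] at h0
    | succ n =>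
      have hl : MakerLegal Set.univ σ m n := fun k hk =>
        ⟨Set.mem_univ _, (hleg k (by omega)).1, (hleg k (by omega)).2⟩
      exact (hσ m n hl).1 C ⟨hC, fun c _ => Set.mem_univ c⟩ (fun c hc => (hM c).mp (hsub hc))
  | step M B a haM haB hstep ih =>
    intro m n hleg hM hB
    have hagree : ∀ k, k < n → m k = Function.update m n a k := by
      intro k hk
      rw [Function.update_of_ne (by omega)]
    have hmm : ∀ k, k ≤ n → makerMoves (Function.update m n a) k = makerMoves m k := fun k hk =>
      (makerMoves_congr m _ k (fun j hj => hagree j (by omega))).symm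
    have hbm : ∀ k, k ≤ n → breakerMoves σ (Function.update m n a) k = breakerMoves σ m k :=
      fun k hk => (breakerMoves_congr σ m _ k (fun j hj => hagree j (by omega))).symm
    have hmn : Function.update m n a n = a := Function.update_self n a m
    have hleg' : ∀ k, k < n + 1 → Function.update m n a k ∉ makerMoves (Function.update m n a) k ∧
        Function.update m n a k ∉ breakerMoves σ (Function.update m n a) k := by
      intro k hk
      rcases Nat.lt_succ_iff_lt_or_eq.mp hk with hlt | rfl
      · rw [hmm k (by omega), hbm k (by omega), ← hagree k hlt]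
        exact hleg k hlt
      · rw [hmm k le_rfl, hbm k le_rfl, hmn]
        exact ⟨fun hc => haM ((hM a).mpr hc), fun hc => haB ((hB a).mpr hc)⟩
    have hl : MakerLegal Set.univ σ (Function.update m n a) n := fun k hk =>
      ⟨Set.mem_univ _, (hleg' k (by omega)).1, (hleg' k (by omega)).2⟩
    have hM' : ∀ c, c ∈ insert a M ↔ c ∈ makerMoves (Function.update m n a) (n + 1) := by
      intro c
      rw [mem_makerMoves_succ, hmn, hmm n le_rfl, Finset.mem_insert, hM c]
    rcases (hσ _ n hl).2 with ⟨_, hb1, hb2⟩ | hfull
    · have hB' : ∀ c, c ∈ insert (σ (makerMoves (Function.update m n a) (n + 1))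
          (breakerMoves σ (Function.update m n a) n)) B ↔
          c ∈ breakerMoves σ (Function.update m n a) (n + 1) := by
        intro c
        rw [breakerMoves_succ, List.mem_append, List.mem_singleton, Finset.mem_insert,
          hbm n le_rfl, hB c, or_comm]
      refine ih _ ?_ ?_ ?_ (Function.update m n a) (n + 1) hleg' hM' hB'
      · intro hc
        exact hb1 ((hM' _).mp (Finset.mem_insert_of_mem hc))
      · intro hc
        refine hb1 ((hM' _).mp ?_)
        rw [hc]
        exact Finset.mem_insert_self a M
      · intro hc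
        have hx := (hB _).mp hc
        rw [← hbm n le_rfl] at hx
        exact hb2 hx
    · obtain ⟨c, hc1, hc2⟩ := exists_cell_notMem (makerMoves (Function.update m n a) (n + 1))
        (breakerMoves σ (Function.update m n a) n)
      rcases hfull c (Set.mem_univ c) with h1 | h2
      · exact hc1 h1
      · exact hc2 h2

/-- If Maker wins from the empty position, Breaker has no winning strategy on the whole plane. -/
theorem not_breakerWins_of_MW (h : MW (∅ : Finset Cell) ∅) :
    ¬ BreakerWins (Set.univ : Set Cell) (snakyCopiesIn Set.univ) := by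
  rintro ⟨σ, hσ⟩
  refine MW.not_reached σ hσ h (fun _ => ((0 : ℤ), (0 : ℤ))) 0 ?_ ?_ ?_
  · intro k hk
    exact absurd hk (Nat.not_lt_zero k)
  · intro c
    simp [makerMoves]
  · intro c
    simp [breakerMoves]

end Vale.Agent.Lib.P062

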