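import Vale.Agent.Lib.P062.CertW.All
import Vale.Agent.Lib.P062.NoBreaker

/-!
# The certificate `CertW` in the inductive form, and its consequence for Breaker
-/

namespace Vale.Agent.Lib.P062

/-- The empty position is won by Maker, by the certificate `CertW`. -/
theorem mw_empty_certW : MW (∅ : Finset Cell) ∅ := by
  refine MW.step ∅ ∅ (0, 0) (Finset.notMem_empty _) (Finset.notMem_empty _) ?_
  intro b _ hb _
  have h := mw_of_root0 CertW.senv 13003 158 CertW.rootRest CertW.valid105 CertW.root_ok b hb
  simpa using h

/-- Breaker has no winning strategy in the Snaky game on the whole plane. -/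
theorem not_breakerWins_plane :
    ¬ BreakerWins (Set.univ : Set Cell) (snakyCopiesIn Set.univ) :=
  not_breakerWins_of_MW mw_empty_certW

end Vale.Agent.Lib.P062
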