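import Vale.Agent.Lib.P062.Game

/-!
# A pairing strategy for Breaker on the strip of height five
-/

namespace Vale.Agent.Lib.P062

/-- The strip of height five: all cells `(x, y)` with `0 ≤ y ≤ 4`. -/
def strip5 : Set Cell := {p | 0 ≤ p.2 ∧ p.2 ≤ 4}

/-- The pairing used by Breaker on the strip of height five.  It has period three in the
first coordinate: cells with `x ≡ 2 (mod 3)` are paired with their right neighbour, and in the
columns `x ≡ 1 (mod 3)` the cells of heights `0, 1` and of heights `3, 4` are paired. -/
def partner5 (p : Cell) : Cell :=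
  if p.1 % 3 = 2 then (p.1 + 1, p.2)
  else if p.1 % 3 = 0 then (p.1 - 1, p.2)
  else if p.2 = 0 then (p.1, 1)
  else if p.2 = 1 then (p.1, 0)
  else if p.2 = 3 then (p.1, 4)
  else if p.2 = 4 then (p.1, 3)
  else p

theorem partner5_h {x y x' : ℤ} (h : x % 3 = 2) (hx : x' = x + 1) :
    partner5 (x, y) = (x', y) := by
  subst hx; simp [partner5, h]

theorem partner5_h' {x y x' : ℤ} (h : x % 3 = 0) (hx : x' = x - 1) :
    partner5 (x, y) = (x', y) := by
  subst hx; simp [partner5, h]

theorem partner5_v {x y y' : ℤ} (h : x % 3 = 1)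
    (hy : (y = 0 ∧ y' = 1) ∨ (y = 1 ∧ y' = 0) ∨ (y = 3 ∧ y' = 4) ∨ (y = 4 ∧ y' = 3) ∨
      (y ≠ 0 ∧ y ≠ 1 ∧ y ≠ 3 ∧ y ≠ 4 ∧ y' = y)) :
    partner5 (x, y) = (x, y') := by
  rcases hy with ⟨rfl, rfl⟩ | ⟨rfl, rfl⟩ | ⟨rfl, rfl⟩ | ⟨rfl, rfl⟩ | ⟨h0, h1, h3, h4, rfl⟩ <;>
    simp [partner5, *]

theorem partner5_invol (c : Cell) : partner5 (partner5 c) = c := by
  obtain ⟨x, y⟩ := c
  have h3 : x % 3 = 0 ∨ x % 3 = 1 ∨ x % 3 = 2 := by omega
  rcases h3 with h | h | h
  · rw [partner5_h' h rfl, partner5_h (by omega) rfl]; simp
  · have hy : (y = 0 ∨ y = 1 ∨ y = 3 ∨ y = 4) ∨ (y ≠ 0 ∧ y ≠ 1 ∧ y ≠ 3 ∧ y ≠ 4) := by omega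
    rcases hy with (rfl | rfl | rfl | rfl) | ⟨h0, h1, h3, h4⟩
    · rw [partner5_v (y' := 1) h (by simp), partner5_v (y' := 0) h (by simp)]
    · rw [partner5_v (y' := 0) h (by simp), partner5_v (y' := 1) h (by simp)]
    · rw [partner5_v (y' := 4) h (by simp), partner5_v (y' := 3) h (by simp)]
    · rw [partner5_v (y' := 3) h (by simp), partner5_v (y' := 4) h (by simp)]
    · rw [partner5_v (y' := y) h (by simp [*]), partner5_v (y' := y) h (by simp [*])]
  · rw [partner5_h h rfl, partner5_h' (by omega) rfl]; simp

theorem pair_in_image (f : Cell → Cell) (p p' : Cell) (hp : p ∈ snaky) (hp' : p' ∈ snaky)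
    (d d' : Cell) (hd : f p = d) (hd' : f p' = d') (h : partner5 d = d') (hne : d' ≠ d) :
    ∃ d ∈ snaky.image f, partner5 d ∈ snaky.image f ∧ partner5 d ≠ d := by
  subst hd hd'
  exact ⟨f p, Finset.mem_image_of_mem f hp, h ▸ Finset.mem_image_of_mem f hp', h ▸ hne⟩

/-- Every allowed copy of Snaky inside the strip of height five contains a pair of partners. -/
theorem copy_contains_pair5 (C : Finset Cell) (hC : IsSnakyCopy C) (hin : ∀ c ∈ C, c ∈ strip5) :
    ∃ d ∈ C, partner5 d ∈ C ∧ partner5 d ≠ d := by
  obtain ⟨swap, a, b, ⟨tx, ty⟩, ha, hb, rfl⟩ := hC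
  have h3 : tx % 3 = 0 ∨ tx % 3 = 1 ∨ tx % 3 = 2 := by omega
  cases swap
  · -- horizontal copies: four consecutive cells in a row
    rcases ha with rfl | rfl
    · rcases h3 with h | h | h
      · exact pair_in_image _ (2, 0) (3, 0) (by decide) (by decide) (tx + 2, ty) (tx + 3, ty)
          (by simp [signedPerm]) (by simp [signedPerm]) (partner5_h (by omega) (by omega))
          (by simp <;> omega)
      · exact pair_in_image _ (1, 0) (2, 0) (by decide) (by decide) (tx + 1, ty) (tx + 2, ty)
          (by simp [signedPerm]) (by simp [signedPerm]) (partner5_h (by omega) (by omega))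
          (by simp <;> omega)
      · exact pair_in_image _ (0, 0) (1, 0) (by decide) (by decide) (tx, ty) (tx + 1, ty)
          (by simp [signedPerm]) (by simp [signedPerm]) (partner5_h (by omega) (by omega))
          (by simp <;> omega)
    · rcases h3 with h | h | h
      · exact pair_in_image _ (1, 0) (0, 0) (by decide) (by decide) (tx - 1, ty) (tx, ty)
          (by simp [signedPerm]; ring) (by simp [signedPerm]) (partner5_h (by omega) (by omega))
          (by simp <;> omega)
      · exact pair_in_image _ (2, 0) (1, 0) (by decide) (by decide) (tx - 2, ty) (tx - 1, ty)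
          (by simp [signedPerm]; ring) (by simp [signedPerm]; ring)
          (partner5_h (by omega) (by omega)) (by simp)
      · exact pair_in_image _ (3, 0) (2, 0) (by decide) (by decide) (tx - 3, ty) (tx - 2, ty)
          (by simp [signedPerm]; ring) (by simp [signedPerm]; ring)
          (partner5_h (by omega) (by omega)) (by simp)
  · -- vertical copies: they span the whole height of the strip
    have h00 := hin ((tx, ty) + signedPerm true a b (0, 0))
      (Finset.mem_image_of_mem _ (by decide))
    have h41 := hin ((tx, ty) + signedPerm true a b (4, 1))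
      (Finset.mem_image_of_mem _ (by decide))
    simp only [signedPerm, strip5, Set.mem_ofPred_eq, if_true, Prod.mk_add_mk] at h00 h41
    rcases hb with rfl | rfl
    · have hty : ty = 0 := by omega
      subst hty
      rcases h3 with h | h | h
      · -- tx ≡ 0
        rcases ha with rfl | rfl
        · exact pair_in_image _ (3, 1) (4, 1) (by decide) (by decide) (tx + 1, 3) (tx + 1, 4)
            (by simp [signedPerm]) (by simp [signedPerm]) (partner5_v (by omega) (by simp))
            (by simp <;> omega)
        · exact pair_in_image _ (3, 1) (3, 0) (by decide) (by decide) (tx - 1, 3) (tx, 3)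
            (by simp [signedPerm]; ring) (by simp [signedPerm])
            (partner5_h (by omega) (by omega)) (by simp <;> omega)
      · exact pair_in_image _ (0, 0) (1, 0) (by decide) (by decide) (tx, 0) (tx, 1)
          (by simp [signedPerm]) (by simp [signedPerm]) (partner5_v h (by simp)) (by simp <;> omega)
      · -- tx ≡ 2
        rcases ha with rfl | rfl
        · exact pair_in_image _ (3, 0) (3, 1) (by decide) (by decide) (tx, 3) (tx + 1, 3)
            (by simp [signedPerm]) (by simp [signedPerm]) (partner5_h h (by omega)) (by simp <;> omega)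
        · exact pair_in_image _ (3, 1) (4, 1) (by decide) (by decide) (tx - 1, 3) (tx - 1, 4)
            (by simp [signedPerm]; ring) (by simp [signedPerm]; ring)
            (partner5_v (by omega) (by simp)) (by simp <;> omega)
    · have hty : ty = 4 := by omega
      subst hty
      rcases h3 with h | h | h
      · -- tx ≡ 0
        rcases ha with rfl | rfl
        · exact pair_in_image _ (4, 1) (3, 1) (by decide) (by decide) (tx + 1, 0) (tx + 1, 1)
            (by simp [signedPerm]) (by simp [signedPerm]) (partner5_v (by omega) (by simp))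
            (by simp <;> omega)
        · exact pair_in_image _ (3, 1) (3, 0) (by decide) (by decide) (tx - 1, 1) (tx, 1)
            (by simp [signedPerm]; ring) (by simp [signedPerm])
            (partner5_h (by omega) (by omega)) (by simp <;> omega)
      · exact pair_in_image _ (1, 0) (0, 0) (by decide) (by decide) (tx, 3) (tx, 4)
          (by simp [signedPerm]) (by simp [signedPerm]) (partner5_v h (by simp)) (by simp <;> omega)
      · -- tx ≡ 2
        rcases ha with rfl | rfl
        · exact pair_in_image _ (3, 0) (3, 1) (by decide) (by decide) (tx, 1) (tx + 1, 1)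
            (by simp [signedPerm]) (by simp [signedPerm]) (partner5_h h (by omega)) (by simp <;> omega)
        · exact pair_in_image _ (4, 1) (3, 1) (by decide) (by decide) (tx - 1, 0) (tx - 1, 1)
            (by simp [signedPerm]; ring) (by simp [signedPerm]; ring)
            (partner5_v (by omega) (by simp)) (by simp <;> omega)

/-- Breaker wins the Snaky game on every board contained in the strip of height five. -/
theorem breakerWins_strip5 (B : Set Cell) (hB : B ⊆ strip5) :
    BreakerWins B (snakyCopiesIn B) := by
  apply breakerWins_of_pairing B _ partner5 partner5_invol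
  rintro C ⟨hC, hin⟩
  obtain ⟨d, hd, hp, hne⟩ := copy_contains_pair5 C hC (fun c hc => hB (hin c hc))
  exact ⟨d, hd, hp, hne, hin d hd, hin _ hp⟩

end Vale.Agent.Lib.P062
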